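import Mathlib
import Crest.Prelude.Def_QuadraticTransport

/-!
# Row 82 (S0109) — shared definitions for the optimal-transport stability project

Everything here is a plain definition (no proofs of results).  `E d` is the ambient Euclidean
space, `K` the convex body carrying the uniform source measure `uniformProbOn K`.
-/

set_option autoImplicit false

noncomputable section

open MeasureTheory
open scoped ENNReal NNReal RealInnerProductSpace

namespace Crest.Agent.Helper75.OT

open Crest.AnalysisR.OT

/-- The ambient space. -/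
abbrev E (d : ℕ) := EuclideanSpace ℝ (Fin d)

variable {d : ℕ}

/-- Standing hypotheses on the source body. -/
structure Body (K : Set (E d)) : Prop where
  compact : IsCompact K
  convex : Convex ℝ K
  inter : (interior K).Nonempty

/-- Laguerre cell of the atom `c` for the finite set of atoms `S` and the weights `w`
(only the values of `w` on `S` matter). -/
def Lag (K : Set (E d)) (S : Finset (E d)) (w : E d → ℝ) (c : E d) : Set (E d) :=
  {x | x ∈ K ∧ ∀ c' ∈ S, ⟪x, c'⟫ - w c' ≤ ⟪x, c⟫ - w c}

/-- Mass of a cell under the uniform probability measure on `K`. -/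
def gM (K : Set (E d)) (S : Finset (E d)) (w : E d → ℝ) (c : E d) : ℝ :=
  ((uniformProbOn K) (Lag K S w c)).toReal

/-- First moment of a cell. -/
def mM (K : Set (E d)) (S : Finset (E d)) (w : E d → ℝ) (c : E d) : E d :=
  ∫ x in Lag K S w c, x ∂(uniformProbOn K)

/-- Second moment of a cell. -/
def qM (K : Set (E d)) (S : Finset (E d)) (w : E d → ℝ) (c : E d) : ℝ :=
  ∫ x in Lag K S w c, ‖x‖ ^ 2 ∂(uniformProbOn K)

/-- `w` is a weight vector realising the cell masses `g` on the support `S`. -/
def IsLagWeights (K : Set (E d)) (S : Finset (E d)) (g w : E d → ℝ) : Prop :=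
  ∀ c ∈ S, gM K S w c = g c

/-- The max-affine potential `x ↦ max_{c ∈ S} (⟪x, c⟫ - w c)` (`0` if `S` is empty). -/
def lagPot (S : Finset (E d)) (w : E d → ℝ) (x : E d) : ℝ :=
  if h : S.Nonempty then S.sup' h (fun c => ⟪x, c⟫ - w c) else 0

/-- The value `∑_c ⟪m_c, c⟫` (maximal correlation between the source and the discrete target). -/
def Mval (K : Set (E d)) (S : Finset (E d)) (w : E d → ℝ) : ℝ :=
  ∑ c ∈ S, ⟪mM K S w c, c⟫

/-- The labelled discrete measure `∑_i m_i δ_{y_i}` (atoms may repeat). -/
def discMeas {ι : Type} [Fintype ι] (y : ι → E d) (m : ι → ℝ) : Measure (E d) :=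
  ∑ i, ENNReal.ofReal (m i) • Measure.dirac (y i)

open Classical in
/-- Total mass carried by the labels sitting at the point `c`. -/
def mergedMass {ι : Type} [Fintype ι] (y : ι → E d) (m : ι → ℝ) (c : E d) : ℝ :=
  ∑ i, if y i = c then m i else 0

open Classical in
/-- The support of a labelled family of atoms. -/
def supp {ι : Type} [Fintype ι] (y : ι → E d) : Finset (E d) := Finset.univ.image y

/-- `T x` is a subgradient of `φ` at `x` for `ρ`-almost every `x`. -/
def SubgradAE (ρ : Measure (E d)) (φ : E d → ℝ) (T : E d → E d) : Prop :=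
  ∀ᵐ x ∂ρ, ∀ z, φ x + ⟪T x, z - x⟫ ≤ φ z

/-- Cyclical monotonicity of `T` on `G`, in permutation form. -/
def CycMonoOn (T : E d → E d) (G : Set (E d)) : Prop :=
  ∀ (F : Finset (E d)) (σ : Equiv.Perm (E d)), (↑F : Set (E d)) ⊆ G → (∀ x, x ∉ F → σ x = x) →
    ∑ x ∈ F, ⟪σ x - x, T x⟫ ≤ 0

/-- `T` is a Brenier-type map from the uniform measure on `K` onto the labelled discrete measure
`∑ m_i δ_{y_i}`: it pushes the source to that measure and is a.e. a subgradient of the convex
`R`-Lipschitz potential `φ`. -/
structure DiscMap (K : Set (E d)) {ι : Type} [Fintype ι] (y : ι → E d) (m : ι → ℝ) (R : ℝ≥0)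
    (T : E d → E d) (φ : E d → ℝ) : Prop where
  meas : Measurable T
  push : (uniformProbOn K).map T = discMeas y m
  conv : ConvexOn ℝ Set.univ φ
  lip : LipschitzWith R φ
  sub : SubgradAE (uniformProbOn K) φ T

end Crest.Agent.Helper75.OT
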