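/-
helper75 — row 82 (S0109), integration of the discrete chain.

`Final.discreteTheory` is the hypothesis `hDT` of helper66's limit passage (D), assembled from the
landed, sorry-free packages:

* (S)  `moment_stability`                 — `Crest.Agent.Helper12.OT.MomentStability`
* (M)  `weights_stability_of`             — `Crest.Agent.Helper43.OT.WeightsStabilityOf`
* (SW) `discrete_potential_stability_of`  — `Crest.Agent.Helper40.OT.SW`
* (L1) `exists_lagWeights`                — `Crest.Agent.Helper82.OT.LagWeights`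
* (LM) `exists_lagMap`, `lagMap_push`     — `Crest.Agent.Helper4.OT.LagMap`
* (DT) `discreteTheory_of`                — `Crest.Agent.Helper48.OT.DTBridge`

All names declared here live in the namespace `Crest.Agent.Helper75.OT.Final`, so this file cannot
clash with any package file.
-/
import Crest.Agent.Helper12.OT.MomentStability
import Crest.Agent.Helper43.OT.WeightsStabilityOf
import Crest.Agent.Helper40.OT.SW
import Crest.Agent.Helper82.OT.LagWeights
import Crest.Agent.Helper4.OT.LagMap
import Crest.Agent.Helper48.OT.DTBridge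

set_option autoImplicit false

open MeasureTheory
open scoped ENNReal NNReal RealInnerProductSpace

namespace Crest.Agent.Helper75.OT.Final

open Crest.AnalysisR.OT Crest.Agent.Helper75.OT

variable {d : ℕ}

/-- (M) Stability of the Laguerre weights in the positions (statement of `Spec.weights_stability`). -/
theorem weights_stability {K : Set (E d)} (hK : Body K) {R : ℝ} (hR : ∀ x ∈ K, ‖x‖ ≤ R)
    {ι : Type} [Fintype ι] (y z : ι → E d) (m : ι → ℝ) (hm : ∀ i, 0 < m i) (hsum : ∑ i, m i = 1)
    (wy wz : E d → ℝ) (hwy : IsLagWeights K (supp y) (mergedMass y m) wy)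
    (hwz : IsLagWeights K (supp z) (mergedMass z m) wz) :
    ∑ i, m i * ((wy (y i) - wz (z i)) - ∑ j, m j * (wy (y j) - wz (z j))) ^ 2
      ≤ 1100 * R ^ 2 * ∑ i, m i * ‖y i - z i‖ ^ 2 :=
  weights_stability_of hK hR (fun S w0 w1 => moment_stability hK hR S w0 w1) y z m hm hsum wy wz
    hwy hwz

/-- (SW) Stability of the discrete potentials (statement of `Spec.discrete_potential_stability`). -/
theorem discrete_potential_stability {K : Set (E d)} (hK : Body K) {R : ℝ}
    (hR : ∀ x ∈ K, ‖x‖ ≤ R) {ι : Type} [Fintype ι] (y z : ι → E d) (m : ι → ℝ)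
    (hm : ∀ i, 0 < m i) (hsum : ∑ i, m i = 1) (wy wz : E d → ℝ)
    (hwy : IsLagWeights K (supp y) (mergedMass y m) wy)
    (hwz : IsLagWeights K (supp z) (mergedMass z m) wz) :
    ∃ κ : ℝ, ∫ x, (lagPot (supp y) wy x - lagPot (supp z) wz x - κ) ^ 2 ∂(uniformProbOn K)
      ≤ 5000 * R ^ 2 * ∑ i, m i * ‖y i - z i‖ ^ 2 :=
  discrete_potential_stability_of hK hR y z m hm hsum wy wz hwy hwz
    (weights_stability hK hR y z m hm hsum wy wz hwy hwz)

/-- **(DT)** in the shape of the hypothesis `hDT` of helper66's limit passage. -/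
theorem discreteTheory (K : Set (EuclideanSpace ℝ (Fin d))) (hKc : IsCompact K)
    (hKv : Convex ℝ K) (hKi : (interior K).Nonempty) :
    ∀ M : ℝ, 0 ≤ M → ∃ C₁ : ℝ, 0 ≤ C₁ ∧ ∃ pot lag,
      Crest.Agent.Helper66.OT.DiscreteTheory K M C₁ pot lag :=
  have hK : Body K := ⟨hKc, hKv, hKi⟩
  discreteTheory_of hK
    (fun S hS g hg hsum => exists_lagWeights hK S hS g hg hsum)
    (fun S hS w => exists_lagMap hK S hS w)
    (fun ι _ y m hm hsum w hw L hLm hLS hLc => lagMap_push hK y m hm hsum w hw L hLm hLS hLc)
    (fun R hR ι _ y z m hm hsum wy wz hwy hwz =>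
      discrete_potential_stability hK hR y z m hm hsum wy wz hwy hwz)

end Crest.Agent.Helper75.OT.Final
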